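import Vale.Agent.P335.Main

/-! # The switch chain mixes rapidly on all split degree vectors -/

namespace Vale.Agent.Results.P335.SplitDegreeVectors

open VP335

/-- For every `n ≥ 4` and every degree vector `d` of a split graph (equivalently: every bipartite
degree sequence, with one side completed to a clique) the switch chain of the problem is within
total variation distance `1 / 4` of uniform at all times `t ≥ 2 ^ 20 * n ^ 8`, from every start. -/
theorem result (n : ℕ) (hn : 4 ≤ n) (d : Fin n → ℕ) (hd : IsSplitDegree n d) :
    (∀ t : ℕ, 2 ^ 20 * n ^ 8 ≤ t → ∀ G : Rlz n d, tvDist n d t G ≤ 1 / 4) ∧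
      tmix n d ≤ 2 ^ 20 * n ^ 8 :=
  VP335.main n hn d hd

end Vale.Agent.Results.P335.SplitDegreeVectors
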