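import Vale.Agent.P335.G.MainG

/-! # The switch chain on simple graphs mixes in polynomial time for every degree vector -/

namespace Vale.Agent.Results.P335.SwitchChainAllDegrees

open VP335

/-- The conjecture of Kannan, Tetali and Vempala for simple undirected graphs: for every `n ≥ 4`
and every degree vector `d`, the switch chain is within total variation distance `1 / 4` of the
uniform distribution at all times `t ≥ 2 ^ 20 * n ^ 8`, from every starting graph; in particular
its mixing time is at most `2 ^ 20 * n ^ 8`. -/
theorem result (n : ℕ) (hn : 4 ≤ n) (d : Fin n → ℕ) :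
    (∀ t : ℕ, 2 ^ 20 * n ^ 8 ≤ t → ∀ G : Rlz n d, tvDist n d t G ≤ 1 / 4) ∧
      tmix n d ≤ 2 ^ 20 * n ^ 8 :=
  VP335.gmain n hn d

end Vale.Agent.Results.P335.SwitchChainAllDegrees
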